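import Mathlib
import Vale.Agent.P245.Defs
import Vale.Agent.P245.Bdl.B1

/-!
# P245: enlargements of convex sets under a log-concave measure
-/

open MeasureTheory Metric Set
open scoped ENNReal

namespace Vale.Agent.P245.H14


/-- Prékopa-Leindler for three sets. -/
theorem pl_meas {n : ℕ} {μ : Measure (EuclideanSpace ℝ (Fin n))} (h : HasLogConcaveDensity μ) {s : ℝ} (hs0 : 0 < s)
    (hs1 : s < 1) {A B C : Set (EuclideanSpace ℝ (Fin n))} (hA : MeasurableSet A) (hB : MeasurableSet B)
    (hC : MeasurableSet C) (hABC : ∀ x ∈ A, ∀ y ∈ B, (1 - s) • x + s • y ∈ C) :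
    μ A ^ (1 - s) * μ B ^ s ≤ μ C := by
  obtain ⟨ρ, hρm, hρ0, hconc, rfl⟩ := h
  set q : (EuclideanSpace ℝ (Fin n)) → ℝ≥0∞ := fun x => ENNReal.ofReal (ρ x) with hq
  have hqm : Measurable q := hρm.ennreal_ofReal
  set e := MeasurableEquiv.toLp 2 (Fin n → ℝ) with he
  have hmp : MeasurePreserving e volume volume := PiLp.volume_preserving_toLp (Fin n)
  have tr : ∀ F : (EuclideanSpace ℝ (Fin n)) → ℝ≥0∞, Measurable F → ∫⁻ x, F x = ∫⁻ z : Fin n → ℝ, F (e z) :=
    fun F hF => (hmp.lintegral_comp hF).symm
  have tA : ∀ S : Set (EuclideanSpace ℝ (Fin n)), MeasurableSet S →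
      (volume.withDensity q) S = ∫⁻ z : Fin n → ℝ, S.indicator q (e z) := by
    intro S hS
    rw [withDensity_apply _ hS, ← lintegral_indicator hS, tr _ (hqm.indicator hS)]
  rw [tA A hA, tA B hB, tA C hC]
  refine prekopa_leindler hs0 hs1 ((hqm.indicator hA).comp e.measurable)
    ((hqm.indicator hB).comp e.measurable) ((hqm.indicator hC).comp e.measurable) ?_
  intro x y
  have hlin : e ((1 - s) • x + s • y) = (1 - s) • e x + s • e y := rfl
  have hs1' : 0 < 1 - s := by linarith
  by_cases hx : e x ∈ A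
  swap
  · rw [Set.indicator_of_notMem hx, ENNReal.zero_rpow_of_pos hs1', zero_mul]
    exact bot_le
  by_cases hy : e y ∈ B
  swap
  · rw [Set.indicator_of_notMem hy, ENNReal.zero_rpow_of_pos hs0, mul_zero]
    exact bot_le
  have hz : e ((1 - s) • x + s • y) ∈ C := by
    rw [hlin]; exact hABC _ hx _ hy
  rw [Set.indicator_of_mem hx, Set.indicator_of_mem hy, Set.indicator_of_mem hz, hlin]
  simp only [hq]
  rcases (hρ0 (e x)).eq_or_lt with h0 | hxp
  · rw [← h0, ENNReal.ofReal_zero, ENNReal.zero_rpow_of_pos hs1', zero_mul]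
    exact bot_le
  rcases (hρ0 (e y)).eq_or_lt with h0 | hyp
  · rw [← h0, ENNReal.ofReal_zero, ENNReal.zero_rpow_of_pos hs0, mul_zero]
    exact bot_le
  have hmem := hconc.1 (x := e x) hxp (y := e y) hyp hs1'.le hs0.le (by ring)
  have hc := hconc.2 (x := e x) hxp (y := e y) hyp hs1'.le hs0.le (by ring)
  simp only [smul_eq_mul] at hc
  have hzp : 0 < ρ ((1 - s) • e x + s • e y) := hmem
  rw [ENNReal.ofReal_rpow_of_pos hxp, ENNReal.ofReal_rpow_of_pos hyp,
    ← ENNReal.ofReal_mul (by positivity)]
  apply ENNReal.ofReal_le_ofReal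
  rw [Real.rpow_def_of_pos hxp, Real.rpow_def_of_pos hyp, ← Real.exp_add,
    ← Real.exp_log hzp]
  apply Real.exp_le_exp.2
  linarith

/-- convexity of the distance to a convex set -/
theorem convexOn_infDist {X : Type*} [NormedAddCommGroup X] [NormedSpace ℝ X] {A : Set X}
    (hA : Convex ℝ A) (hne : A.Nonempty) : ConvexOn ℝ univ fun x => infDist x A := by
  refine ⟨convex_univ, fun x _ y _ a b ha hb hab => ?_⟩
  simp only [smul_eq_mul]
  refine le_of_forall_pos_le_add fun ε hε => ?_
  obtain ⟨p, hp, hxp⟩ := (infDist_lt_iff hne).1 (lt_add_of_pos_right (infDist x A) hε)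
  obtain ⟨q, hq, hyq⟩ := (infDist_lt_iff hne).1 (lt_add_of_pos_right (infDist y A) hε)
  have hmem : a • p + b • q ∈ A := hA hp hq ha hb hab
  calc infDist (a • x + b • y) A ≤ dist (a • x + b • y) (a • p + b • q) :=
        infDist_le_dist_of_mem hmem
    _ ≤ dist (a • x) (a • p) + dist (b • y) (b • q) := dist_add_add_le _ _ _ _
    _ = a * dist x p + b * dist y q := by
        rw [dist_smul₀, dist_smul₀, Real.norm_of_nonneg ha, Real.norm_of_nonneg hb]
    _ ≤ a * (infDist x A + ε) + b * (infDist y A + ε) := by gcongr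
    _ = a * infDist x A + b * infDist y A + ε := by
        have : a * ε + b * ε = ε := by rw [← add_mul, hab, one_mul]
        linarith

/-- **Log-concavity of the enlargement function**, two point form. -/
theorem enl_two {n : ℕ} {μ : Measure (EuclideanSpace ℝ (Fin n))} [IsProbabilityMeasure μ] (h : HasLogConcaveDensity μ)
    {A : Set (EuclideanSpace ℝ (Fin n))} (hA : Convex ℝ A) (hm : MeasurableSet A) (hne : A.Nonempty) {r r0 : ℝ}
    (hr : 0 < r) (hr0 : r < r0) :
    μ.real A ^ (1 - r / r0) * μ.real {x | infDist x A ≤ r0} ^ (r / r0)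
      ≤ μ.real {x | infDist x A ≤ r} := by
  have hr0p : 0 < r0 := hr.trans hr0
  have hs0 : 0 < r / r0 := by positivity
  have hs1 : r / r0 < 1 := (div_lt_one hr0p).2 hr0
  have hmD : ∀ t : ℝ, MeasurableSet {x : EuclideanSpace ℝ (Fin n) | infDist x A ≤ t} := fun t =>
    (isClosed_le (continuous_infDist_pt A) continuous_const).measurableSet
  have key := pl_meas h hs0 hs1 hm (hmD r0) (hmD r) (by
    intro x hx y hy
    have hc := (convexOn_infDist hA hne).2 (mem_univ x) (mem_univ y)
      (show (0 : ℝ) ≤ 1 - r / r0 by linarith) hs0.le (by ring)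
    simp only [smul_eq_mul] at hc
    simp only [mem_setOf_eq] at hy ⊢
    rw [infDist_zero_of_mem hx, mul_zero, zero_add] at hc
    refine hc.trans ?_
    calc r / r0 * infDist y A ≤ r / r0 * r0 := by gcongr
      _ = r := by field_simp)
  have hfin : ∀ S : Set (EuclideanSpace ℝ (Fin n)), μ S ≠ ∞ := fun S => measure_ne_top _ _
  have := ENNReal.toReal_mono (hfin _) key
  rw [ENNReal.toReal_mul, ← ENNReal.toReal_rpow, ← ENNReal.toReal_rpow] at this
  exact this

/-- The concentration hypothesis (output of the row CONC) with constant `K`. -/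
def Conc {n : ℕ} (μ : Measure (EuclideanSpace ℝ (Fin n))) (K : ℝ) : Prop :=
  ∀ F : (EuclideanSpace ℝ (Fin n)) → ℝ, LipschitzWith 1 F → ConvexOn ℝ univ F → ∀ t : ℝ, 0 ≤ t →
    ∫ x, Real.exp (t * ((∫ y, F y ∂μ) - F x)) ∂μ ≤ Real.exp (K * t ^ 2)

/-- mean distance to a convex set -/
theorem mean_dist {n : ℕ} {μ : Measure (EuclideanSpace ℝ (Fin n))} [IsProbabilityMeasure μ] {K : ℝ} (hK : 0 < K)
    (hc : Conc μ K) {A : Set (EuclideanSpace ℝ (Fin n))} (hA : Convex ℝ A) (hm : MeasurableSet A)
    (hne : A.Nonempty) (h0 : 0 < μ.real A) (h1 : μ.real A < 1) :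
    ∫ x, infDist x A ∂μ ≤ 2 * √(K * Real.log (1 / μ.real A)) := by
  set k := Real.log (1 / μ.real A) with hk
  have hkpos : 0 < k := Real.log_pos (by rw [lt_div_iff₀ h0]; linarith)
  set m := ∫ x, infDist x A ∂μ with hmdef
  have hF := hc (fun x => infDist x A) (lipschitz_infDist_pt A) (convexOn_infDist hA hne)
  -- main inequality
  have main : ∀ t : ℝ, 0 ≤ t → t * m ≤ k + K * t ^ 2 := by
    intro t ht
    have h2 := hF t ht
    have hint : Integrable (fun x => Real.exp (t * (m - infDist x A))) μ := by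
      refine Integrable.of_bound (C := Real.exp (t * m)) ?_ ?_
      · exact (Real.continuous_exp.comp (continuous_const.mul
          (continuous_const.sub (continuous_infDist_pt A)))).aestronglyMeasurable
      · filter_upwards with x
        rw [Real.norm_of_nonneg (Real.exp_pos _).le]
        apply Real.exp_le_exp.2
        have : 0 ≤ infDist x A := infDist_nonneg
        nlinarith
    have h3 : μ.real A * Real.exp (t * m) ≤ ∫ x, Real.exp (t * (m - infDist x A)) ∂μ := by
      calc μ.real A * Real.exp (t * m) = ∫ x in A, Real.exp (t * m) ∂μ := by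
            rw [setIntegral_const, smul_eq_mul]
        _ = ∫ x in A, Real.exp (t * (m - infDist x A)) ∂μ := by
            refine setIntegral_congr_fun hm fun x hx => ?_
            simp only [infDist_zero_of_mem hx, sub_zero]
        _ ≤ ∫ x, Real.exp (t * (m - infDist x A)) ∂μ :=
            setIntegral_le_integral hint (Filter.Eventually.of_forall fun x => (Real.exp_pos _).le)
    have h4 : μ.real A * Real.exp (t * m) ≤ Real.exp (K * t ^ 2) := h3.trans h2
    have h5 : Real.log (μ.real A) + t * m ≤ K * t ^ 2 := by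
      have := Real.log_le_log (by positivity) h4
      rwa [Real.log_mul h0.ne' (Real.exp_pos _).ne', Real.log_exp, Real.log_exp] at this
    have h6 : k = - Real.log (μ.real A) := by rw [hk, one_div, Real.log_inv]
    linarith
  have hq : 0 < √(k / K) := Real.sqrt_pos.2 (by positivity)
  have h7 := main (√(k / K)) hq.le
  rw [Real.sq_sqrt (by positivity)] at h7
  have h8 : K * (k / K) = k := by field_simp
  rw [h8] at h7
  have h9 : √(k / K) * √(K * k) = k := by
    rw [← Real.sqrt_mul (by positivity)]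
    have : k / K * (K * k) = k ^ 2 := by field_simp
    rw [this, Real.sqrt_sq hkpos.le]
  by_contra hcon
  push Not at hcon
  have : √(k / K) * (2 * √(K * k)) < √(k / K) * m := mul_lt_mul_of_pos_left hcon hq
  nlinarith

/-- **Gaussian isoperimetry for convex sets**, integrated form. -/
theorem enl_iso {n : ℕ} {μ : Measure (EuclideanSpace ℝ (Fin n))} [IsProbabilityMeasure μ] (h : HasLogConcaveDensity μ)
    {K : ℝ} (hK : 0 < K) (hint : Integrable (fun x => ‖x‖) μ) (hc : Conc μ K)
    {A : Set (EuclideanSpace ℝ (Fin n))} (hA : Convex ℝ A) (hm : MeasurableSet A)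
    (h0 : 0 < μ.real A) (h4 : μ.real A ≤ 1 / 4) {r : ℝ} (hr : 0 < r)
    (hr0 : r < 4 * √(K * Real.log (1 / μ.real A))) :
    μ.real A * Real.exp (r * √(Real.log (1 / μ.real A)) / (8 * √K))
      ≤ μ.real {x | infDist x A ≤ r} := by
  have hne : A.Nonempty := by
    rw [nonempty_iff_ne_empty]
    rintro rfl
    simp at h0
  set k := Real.log (1 / μ.real A) with hk
  have hlog2 : 0 < Real.log 2 := Real.log_pos (by norm_num)
  have hk4 : 2 * Real.log 2 ≤ k := by
    have : Real.log 4 ≤ k := by
      apply Real.log_le_log (by norm_num)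
      rw [le_div_iff₀ h0]; linarith
    have e4 : Real.log 4 = 2 * Real.log 2 := by
      rw [show (4 : ℝ) = 2 ^ 2 by norm_num, Real.log_pow]; norm_num
    linarith
  have hkpos : 0 < k := by linarith
  set r0 := 4 * √(K * k) with hr0d
  have hr0p : 0 < r0 := by positivity
  have hmd := mean_dist hK hc hA hm hne h0 (by linarith)
  -- Markov
  have hintd : Integrable (fun x => infDist x A) μ := by
    obtain ⟨p, hp⟩ := hne
    refine Integrable.mono' (hint.add (integrable_const ‖p‖))
      (continuous_infDist_pt A).aestronglyMeasurable ?_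
    filter_upwards with x
    rw [Real.norm_of_nonneg infDist_nonneg]
    calc infDist x A ≤ dist x p := infDist_le_dist_of_mem hp
      _ ≤ ‖x‖ + ‖p‖ := dist_le_norm_add_norm _ _
  have hmar := mul_meas_ge_le_integral_of_nonneg
    (μ := μ) (f := fun x => infDist x A) (Filter.Eventually.of_forall fun x => infDist_nonneg)
    hintd r0
  have hhalf : 1 / 2 ≤ μ.real {x | infDist x A ≤ r0} := by
    have e1 : μ.real {x | infDist x A ≤ r0} + μ.real {x | infDist x A ≤ r0}ᶜ = 1 := by
      have hmD : MeasurableSet {x : EuclideanSpace ℝ (Fin n) | infDist x A ≤ r0} :=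
        (isClosed_le (continuous_infDist_pt A) continuous_const).measurableSet
      rw [measureReal_add_measureReal_compl hmD, probReal_univ]
    have e2 : μ.real {x | infDist x A ≤ r0}ᶜ ≤ μ.real {x | r0 ≤ infDist x A} := by
      refine measureReal_mono (fun x hx => ?_) (measure_ne_top _ _)
      simp only [mem_compl_iff, mem_setOf_eq, not_le] at hx ⊢
      exact hx.le
    have e3 : r0 * μ.real {x | r0 ≤ infDist x A} ≤ r0 * (1 / 2) := by
      calc r0 * μ.real {x | r0 ≤ infDist x A} ≤ ∫ x, infDist x A ∂μ := hmar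
        _ ≤ 2 * √(K * k) := hmd
        _ = r0 * (1 / 2) := by rw [hr0d]; ring
    have e4 := le_of_mul_le_mul_left e3 hr0p
    linarith
  have key := enl_two h hA hm hne hr hr0
  refine le_trans ?_ key
  have hs0 : 0 < r / r0 := by positivity
  have e5 : (1 / 2 : ℝ) ^ (r / r0) ≤ μ.real {x | infDist x A ≤ r0} ^ (r / r0) :=
    Real.rpow_le_rpow (by norm_num) hhalf hs0.le
  have e6 : μ.real A ^ (1 - r / r0) = μ.real A * Real.exp (r / r0 * k) := by
    rw [Real.rpow_def_of_pos h0, mul_sub, mul_one, sub_eq_add_neg, Real.exp_add,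
      Real.exp_log h0, hk, one_div, Real.log_inv]
    congr 2; ring
  have e7 : (1 / 2 : ℝ) ^ (r / r0) = Real.exp (-(r / r0 * Real.log 2)) := by
    rw [Real.rpow_def_of_pos (by norm_num), one_div, Real.log_inv]
    congr 1; ring
  calc μ.real A * Real.exp (r * √k / (8 * √K))
      ≤ μ.real A * Real.exp (r / r0 * k) * (1 / 2 : ℝ) ^ (r / r0) := by
        rw [e7, mul_assoc, ← Real.exp_add]
        apply mul_le_mul_of_nonneg_left _ h0.le
        apply Real.exp_le_exp.2
        have e8 : r * √k / (8 * √K) = r / r0 * (k / 2) := by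
          rw [hr0d, Real.sqrt_mul hK.le]
          have hsk : 0 < √k := Real.sqrt_pos.2 hkpos
          have hsK : 0 < √K := Real.sqrt_pos.2 hK
          have : k = √k * √k := (Real.mul_self_sqrt hkpos.le).symm
          field_simp
          rw [Real.sq_sqrt hkpos.le]
          ring
        rw [e8]
        have : r / r0 * (k / 2) ≤ r / r0 * (k - Real.log 2) :=
          mul_le_mul_of_nonneg_left (by linarith) hs0.le
        linarith
    _ ≤ μ.real A ^ (1 - r / r0) * μ.real {x | infDist x A ≤ r0} ^ (r / r0) := by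
        rw [e6]
        gcongr

end Vale.Agent.P245.H14
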