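import Mathlib
import Vale.Agent.P245.H14.QCa

/-!
# P245: the functional part of the row QC, one variable functions
-/

open MeasureTheory Metric Set
open scoped ENNReal Topology

namespace Vale.Agent.P245.H14

/-- the positive part of `y - m` -/
noncomputable def uu (m y : ℝ) : ℝ := max (y - m) 0

/-- `log₊ (u² / 4M)` -/
noncomputable def ll (m M y : ℝ) : ℝ := Real.log (max (uu m y ^ 2 / (4 * M)) 1)

noncomputable def qq (m M y : ℝ) : ℝ := √(ll m M y)

noncomputable def g1 (m M y : ℝ) : ℝ := 2 * uu m y * qq m M y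

noncomputable def g2 (m M y : ℝ) : ℝ := 2 * uu m y * ll m M y

variable {m M : ℝ}

theorem uu_nonneg (y : ℝ) : 0 ≤ uu m y := le_max_right _ _

theorem ll_nonneg (y : ℝ) : 0 ≤ ll m M y := Real.log_nonneg (le_max_right _ _)

theorem qq_nonneg (y : ℝ) : 0 ≤ qq m M y := Real.sqrt_nonneg _

theorem qq_sq (y : ℝ) : qq m M y * qq m M y = ll m M y := Real.mul_self_sqrt (ll_nonneg y)

theorem g1_nonneg (y : ℝ) : 0 ≤ g1 m M y :=
  mul_nonneg (mul_nonneg (by norm_num) (uu_nonneg y)) (qq_nonneg y)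

theorem g2_nonneg (y : ℝ) : 0 ≤ g2 m M y :=
  mul_nonneg (mul_nonneg (by norm_num) (uu_nonneg y)) (ll_nonneg y)

theorem g2_eq (y : ℝ) : g2 m M y = g1 m M y * qq m M y := by
  rw [g2, g1, mul_assoc, mul_assoc, mul_assoc, qq_sq]

theorem uu_mono : Monotone (uu m) := fun _ _ h => max_le_max (by linarith) le_rfl

theorem ll_mono (hM : 0 < M) : Monotone (ll m M) := fun a b h => by
  apply Real.log_le_log (lt_of_lt_of_le one_pos (le_max_right _ _))
  apply max_le_max _ le_rfl
  have h1 := uu_mono (m := m) h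
  have h2 := uu_nonneg (m := m) a
  gcongr

theorem qq_mono (hM : 0 < M) : Monotone (qq m M) := fun _ _ h =>
  Real.sqrt_le_sqrt (ll_mono hM h)

theorem g1_mono (hM : 0 < M) : Monotone (g1 m M) := fun a b h => by
  have h1 := uu_mono (m := m) h
  have h2 := qq_mono (m := m) hM h
  have h3 := uu_nonneg (m := m) a
  have h4 := qq_nonneg (m := m) (M := M) a
  have h5 := uu_nonneg (m := m) b
  unfold g1
  gcongr

theorem g2_mono (hM : 0 < M) : Monotone (g2 m M) := fun a b h => by
  have h1 := uu_mono (m := m) h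
  have h2 := ll_mono (m := m) hM h
  have h3 := uu_nonneg (m := m) a
  have h4 := ll_nonneg (m := m) (M := M) a
  have h5 := uu_nonneg (m := m) b
  unfold g2
  gcongr

theorem continuous_uu : Continuous (uu m) := by
  unfold uu; fun_prop

theorem continuous_ll : Continuous (ll m M) := by
  unfold ll
  refine Continuous.log ?_ fun x => (lt_of_lt_of_le one_pos (le_max_right _ _)).ne'
  have := continuous_uu (m := m)
  fun_prop

theorem continuous_qq : Continuous (qq m M) := Real.continuous_sqrt.comp continuous_ll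

theorem continuous_g1 : Continuous (g1 m M) :=
  (continuous_const.mul continuous_uu).mul continuous_qq

theorem continuous_g2 : Continuous (g2 m M) :=
  (continuous_const.mul continuous_uu).mul continuous_ll

/-- `G(y) = ∫₀^y g1` -/
noncomputable def GG (m M y : ℝ) : ℝ := ∫ t in (0 : ℝ)..y, g1 m M t

noncomputable def JJ (m M y : ℝ) : ℝ := ∫ t in (0 : ℝ)..y, g2 m M t

theorem GG_sub_le (hM : 0 < M) {a b : ℝ} (hab : a ≤ b) :
    GG m M b - GG m M a ≤ (b - a) * g1 m M b := by
  have hi : ∀ x y : ℝ, IntervalIntegrable (g1 m M) volume x y := fun x y =>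
    continuous_g1.intervalIntegrable x y
  have h1 : GG m M b - GG m M a = ∫ t in a..b, g1 m M t :=
    intervalIntegral.integral_interval_sub_left (hi 0 b) (hi 0 a)
  rw [h1]
  calc ∫ t in a..b, g1 m M t ≤ ∫ _t in a..b, g1 m M b :=
        intervalIntegral.integral_mono_on hab (hi a b) (by simp)
          fun x hx => g1_mono hM hx.2
    _ = (b - a) * g1 m M b := by rw [intervalIntegral.integral_const, smul_eq_mul]

theorem JJ_ge (hm : 0 ≤ m) (hM : 0 < M) {y : ℝ} (hy : 0 ≤ y) :
    uu m y ^ 2 / 2 * (ll m M y - Real.log 4) ≤ JJ m M y := by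
  have hi : ∀ x y : ℝ, IntervalIntegrable (g2 m M) volume x y := fun x y =>
    continuous_g2.intervalIntegrable x y
  rcases (uu_nonneg (m := m) y).eq_or_lt with h0 | hpos
  · rw [← h0]
    have : 0 ≤ JJ m M y := intervalIntegral.integral_nonneg hy fun x _ => g2_nonneg x
    simpa using this
  have hym : uu m y = y - m := by
    unfold uu at hpos ⊢
    rcases le_total (y - m) 0 with h | h
    · rw [max_eq_right h] at hpos; exact absurd hpos (lt_irrefl _)
    · exact max_eq_left h
  set w := uu m y with hw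
  set y' := y - w / 2 with hy'
  have hy'0 : 0 ≤ y' := by rw [hy']; linarith
  have hy'y : y' ≤ y := by rw [hy']; linarith
  have hu' : uu m y' = w / 2 := by
    unfold uu
    rw [max_eq_left (by rw [hy']; linarith), hy']; linarith
  have h1 : JJ m M y = (∫ t in (0 : ℝ)..y', g2 m M t) + ∫ t in y'..y, g2 m M t :=
    (intervalIntegral.integral_add_adjacent_intervals (hi 0 y') (hi y' y)).symm
  have h2 : 0 ≤ ∫ t in (0 : ℝ)..y', g2 m M t :=
    intervalIntegral.integral_nonneg hy'0 fun x _ => g2_nonneg x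
  have h3 : (y - y') * g2 m M y' ≤ ∫ t in y'..y, g2 m M t := by
    calc (y - y') * g2 m M y' = ∫ _t in y'..y, g2 m M y' := by
          rw [intervalIntegral.integral_const, smul_eq_mul]
      _ ≤ ∫ t in y'..y, g2 m M t :=
          intervalIntegral.integral_mono_on hy'y (by simp) (hi y' y)
            fun x hx => g2_mono hM hx.1
  have h4 : ll m M y - Real.log 4 ≤ ll m M y' := by
    unfold ll
    rw [hu', ← hw, ← Real.log_div (lt_of_lt_of_le one_pos (le_max_right _ _)).ne' (by norm_num)]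
    apply Real.log_le_log (by positivity)
    rcases le_total (w ^ 2 / (4 * M)) 1 with h | h
    · rw [max_eq_right h]
      exact le_trans (by norm_num) (le_max_right _ _)
    · rw [max_eq_left h]
      refine le_trans (le_of_eq ?_) (le_max_left _ _)
      field_simp
      ring
  have h5 : (y - y') * g2 m M y' = w ^ 2 / 2 * ll m M y' := by
    unfold g2
    rw [hu', hy']; ring
  have h6 : w ^ 2 / 2 * (ll m M y - Real.log 4) ≤ w ^ 2 / 2 * ll m M y' :=
    mul_le_mul_of_nonneg_left h4 (by positivity)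
  linarith

/-- comparison of two thresholds -/
theorem ll_le_ll (hM : 0 < M) {R : ℝ} (hR : 1 ≤ R) (y : ℝ) :
    ll m M y ≤ ll m (M * R) y + Real.log R := by
  have hR0 : 0 < R := by linarith
  have h1 : 0 < max (uu m y ^ 2 / (4 * (M * R))) 1 := lt_of_lt_of_le one_pos (le_max_right _ _)
  unfold ll
  rw [← Real.log_mul h1.ne' hR0.ne']
  apply Real.log_le_log (lt_of_lt_of_le one_pos (le_max_right _ _))
  apply max_le
  · calc uu m y ^ 2 / (4 * M) = uu m y ^ 2 / (4 * (M * R)) * R := by field_simp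
      _ ≤ max (uu m y ^ 2 / (4 * (M * R))) 1 * R :=
          mul_le_mul_of_nonneg_right (le_max_left _ _) hR0.le
  · calc (1 : ℝ) ≤ 1 * R := by linarith
      _ ≤ max (uu m y ^ 2 / (4 * (M * R))) 1 * R :=
          mul_le_mul_of_nonneg_right (le_max_right _ _) hR0.le

/-- the pointwise inequality for the entropy -/
theorem ent_pt (hm : 0 ≤ m) (hM : 0 < M) {y : ℝ} (hy : 0 ≤ y) :
    y ^ 2 * Real.log (y ^ 2) - y ^ 2 * Real.log (m ^ 2 + M) - y ^ 2 + (m ^ 2 + M) ≤
      37 * (y - m) ^ 2 + 32 * M + 3 * (uu m y ^ 2 * ll m M y) := by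
  have hc : 0 < m ^ 2 + M := by positivity
  set b := √(m ^ 2 + M) with hb
  have hb2 : b ^ 2 = m ^ 2 + M := Real.sq_sqrt hc.le
  have hbp : 0 < b := Real.sqrt_pos.2 hc
  have hbm : m ≤ b := by
    rw [hb]; apply Real.le_sqrt_of_sq_le; linarith
  have hbm2 : (b - m) ^ 2 ≤ M := by nlinarith
  have hM32 : 0 ≤ 3 * (uu m y ^ 2 * ll m M y) :=
    mul_nonneg (by norm_num) (mul_nonneg (sq_nonneg _) (ll_nonneg y))
  rcases hy.eq_or_lt with h0 | hyp
  · subst h0
    have : m ^ 2 + M ≤ 37 * (0 - m) ^ 2 + 32 * M := by nlinarith [sq_nonneg m]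
    simp only [ne_eq, OfNat.ofNat_ne_zero, not_false_eq_true, zero_pow, zero_mul, sub_zero,
      zero_add]
    linarith
  have hlog : y ^ 2 * Real.log (y ^ 2) - y ^ 2 * Real.log (m ^ 2 + M)
      = y ^ 2 * Real.log (y ^ 2 / b ^ 2) := by
    rw [← hb2, Real.log_div (by positivity) (by positivity)]; ring
  rw [hlog, ← hb2]
  rcases le_or_gt y (3 * b) with h3 | h3
  · -- the quadratic range
    have h4 : Real.log (y ^ 2 / b ^ 2) ≤ y ^ 2 / b ^ 2 - 1 := Real.log_le_sub_one_of_pos (by positivity)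
    have h5 : y ^ 2 * Real.log (y ^ 2 / b ^ 2) ≤ y ^ 2 * (y ^ 2 / b ^ 2 - 1) :=
      mul_le_mul_of_nonneg_left h4 (by positivity)
    have h6 : y ^ 2 * (y ^ 2 / b ^ 2 - 1) - y ^ 2 + b ^ 2 = (y ^ 2 - b ^ 2) ^ 2 / b ^ 2 := by
      field_simp; ring
    have h7 : (y ^ 2 - b ^ 2) ^ 2 / b ^ 2 ≤ 16 * (y - b) ^ 2 := by
      rw [div_le_iff₀ (by positivity)]
      have e : (y ^ 2 - b ^ 2) ^ 2 = (y - b) ^ 2 * (y + b) ^ 2 := by ring
      rw [e]
      have e2 : (y + b) ^ 2 ≤ 16 * b ^ 2 := by nlinarith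
      nlinarith [sq_nonneg (y - b), mul_le_mul_of_nonneg_left e2 (sq_nonneg (y - b))]
    have h8 : (y - b) ^ 2 ≤ 2 * (y - m) ^ 2 + 2 * (b - m) ^ 2 := by nlinarith [sq_nonneg ((y - m) + (b - m))]
    nlinarith [sq_nonneg (y - m)]
  · -- the large range
    have hu : uu m y = y - m := by unfold uu; exact max_eq_left (by linarith)
    set w := uu m y with hw
    have hwy : 2 / 3 * y ≤ w := by rw [hu]; linarith
    have hwp : 0 < w := by linarith
    have hwb : 2 * b ≤ w := by linarith
    have hMb : M ≤ b ^ 2 := by rw [hb2]; nlinarith [sq_nonneg m]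
    have hw4 : 1 ≤ w ^ 2 / (4 * M) := by
      rw [le_div_iff₀ (by positivity)]; nlinarith
    have hll : ll m M y = Real.log (w ^ 2 / (4 * M)) := by
      unfold ll; rw [← hw, max_eq_left hw4]
    have h9 : Real.log 9 ≤ 2.2 := by
      have : Real.log 9 = 2 * Real.log 3 := by
        rw [show (9 : ℝ) = 3 ^ 2 by norm_num, Real.log_pow]; norm_num
      rw [this]
      have h3 : Real.log 3 ≤ 1.1 := by
        rw [Real.log_le_iff_le_exp (by norm_num)]
        have h2 := Real.sum_le_exp_of_nonneg (x := (1.1 : ℝ)) (by norm_num) 8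
        norm_num [Finset.sum_range_succ, Nat.factorial] at h2 ⊢
        linarith
      linarith
    have hyw : y ^ 2 ≤ 9 / 4 * w ^ 2 := by nlinarith
    have h10 : Real.log (y ^ 2 / b ^ 2) ≤ ll m M y + Real.log 9 := by
      rw [hll, ← Real.log_mul (by positivity) (by norm_num)]
      apply Real.log_le_log (by positivity)
      calc y ^ 2 / b ^ 2 ≤ (9 / 4 * w ^ 2) / M := by gcongr
        _ = w ^ 2 / (4 * M) * 9 := by field_simp
    have h11 : 0 ≤ ll m M y + Real.log 9 := by
      have := ll_nonneg (m := m) (M := M) y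
      have : 0 ≤ Real.log 9 := Real.log_nonneg (by norm_num)
      linarith [ll_nonneg (m := m) (M := M) y]
    have h12 : y ^ 2 * Real.log (y ^ 2 / b ^ 2) ≤ 9 / 4 * w ^ 2 * (ll m M y + 2.2) := by
      calc y ^ 2 * Real.log (y ^ 2 / b ^ 2) ≤ y ^ 2 * (ll m M y + Real.log 9) := by gcongr
        _ ≤ 9 / 4 * w ^ 2 * (ll m M y + Real.log 9) := by gcongr
        _ ≤ 9 / 4 * w ^ 2 * (ll m M y + 2.2) := by gcongr
    have h13 : w ^ 2 = (y - m) ^ 2 := by rw [hu]
    have h14 := ll_nonneg (m := m) (M := M) y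
    have h15 : 0 ≤ w ^ 2 * ll m M y := by positivity
    have h16 : b ^ 2 ≤ y ^ 2 := by nlinarith
    nlinarith

end Vale.Agent.P245.H14
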