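import Mathlib
import Vale.Agent.P245.H14.QCb

/-!
# P245: the functional inequality of the row QC
-/

open MeasureTheory Metric Set Filter
open scoped ENNReal Topology ContDiff

namespace Vale.Agent.P245.H14


variable {n : ℕ} {μ : Measure (EuclideanSpace ℝ (Fin n))} {m M : ℝ}

noncomputable def fs (f : (EuclideanSpace ℝ (Fin n)) → ℝ) (L s : ℝ) (x : EuclideanSpace ℝ (Fin n)) : ℝ :=
  |f x| + s * ‖fderiv ℝ f x‖ + L * s ^ 2

theorem int_comp [IsProbabilityMeasure μ] {Φ : ℝ → ℝ} (hΦ : Continuous Φ) {h : (EuclideanSpace ℝ (Fin n)) → ℝ}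
    (hh : Continuous h) {B : ℝ} (hb : ∀ x, |h x| ≤ B) : Integrable (fun x => Φ (h x)) μ := by
  obtain ⟨C, hC⟩ := (isCompact_Icc (a := -B) (b := B)).exists_bound_of_continuousOn
    hΦ.continuousOn
  exact Integrable.of_bound (hΦ.comp hh).aestronglyMeasurable C
    (Eventually.of_forall fun x => hC _ (abs_le.1 (hb x)))

theorem taylor {f : (EuclideanSpace ℝ (Fin n)) → ℝ} (hf : ContDiff ℝ ∞ f) (hc : HasCompactSupport f) :
    ∃ L : ℝ, 0 ≤ L ∧ ∀ x y, |f y| ≤ |f x| + ‖fderiv ℝ f x‖ * ‖y - x‖ + L * ‖y - x‖ ^ 2 := by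
  have h1 : ContDiff ℝ 1 (fderiv ℝ f) := hf.fderiv_right (m := 1) (by norm_cast)
  obtain ⟨C, hC⟩ := h1.lipschitzWith_of_hasCompactSupport (hc.fderiv ℝ) (by norm_num)
  refine ⟨C, C.2, fun x y => ?_⟩
  have h2 := Convex.norm_image_sub_le_of_norm_fderiv_le' (𝕜 := ℝ) (f := f)
    (φ := fderiv ℝ f x) (C := C * ‖y - x‖) (s := closedBall x ‖y - x‖) (x := x) (y := y)
    (fun z _ => (hf.differentiable (by simp)).differentiableAt)
    (fun z hz => by
      have := hC.dist_le_mul z x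
      rw [dist_eq_norm] at this
      refine this.trans ?_
      gcongr
      exact mem_closedBall.1 hz)
    (convex_closedBall _ _) (mem_closedBall_self (norm_nonneg _))
    (mem_closedBall.2 (by rw [dist_eq_norm]))
  have h3 : |f y| ≤ |f x| + |fderiv ℝ f x (y - x)| + ‖f y - f x - fderiv ℝ f x (y - x)‖ := by
    rw [Real.norm_eq_abs]
    have e : f y = f x + fderiv ℝ f x (y - x) + (f y - f x - fderiv ℝ f x (y - x)) := by ring
    calc |f y| = |f x + fderiv ℝ f x (y - x) + (f y - f x - fderiv ℝ f x (y - x))| := by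
          rw [← e]
      _ ≤ _ := abs_add_three _ _ _
  have h4 : |fderiv ℝ f x (y - x)| ≤ ‖fderiv ℝ f x‖ * ‖y - x‖ := by
    rw [← Real.norm_eq_abs]; exact (fderiv ℝ f x).le_opNorm _
  have h5 : (C : ℝ) * ‖y - x‖ * ‖y - x‖ = C * ‖y - x‖ ^ 2 := by ring
  linarith

theorem le_fs {f : (EuclideanSpace ℝ (Fin n)) → ℝ} {L : ℝ}
    (hL : ∀ x y, |f y| ≤ |f x| + ‖fderiv ℝ f x‖ * ‖y - x‖ + L * ‖y - x‖ ^ 2) (hL0 : 0 ≤ L)
    {t s : ℝ} (_hs : 0 ≤ s) (hne : {x | t < |f x|}.Nonempty) {x : EuclideanSpace ℝ (Fin n)}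
    (hx : infDist x {x | t < |f x|} ≤ s) : t ≤ fs f L s x := by
  have h1 : Tendsto (fun d : ℝ => |f x| + d * ‖fderiv ℝ f x‖ + L * d ^ 2) (𝓝[>] s)
      (𝓝 (fs f L s x)) := by
    have : Continuous fun d : ℝ => |f x| + d * ‖fderiv ℝ f x‖ + L * d ^ 2 := by fun_prop
    exact (this.tendsto s).mono_left nhdsWithin_le_nhds
  refine ge_of_tendsto h1 ?_
  filter_upwards [self_mem_nhdsWithin] with d hd
  have hd' : s < d := hd
  obtain ⟨y, hy, hxy⟩ := (infDist_lt_iff hne).1 (lt_of_le_of_lt hx hd')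
  have h2 := hL x y
  have h3 : ‖y - x‖ ≤ d := by rw [← dist_eq_norm, dist_comm]; exact hxy.le
  have hy' : t < |f y| := hy
  calc t ≤ |f x| + ‖fderiv ℝ f x‖ * ‖y - x‖ + L * ‖y - x‖ ^ 2 := (hy'.trans_le h2).le
    _ ≤ |f x| + d * ‖fderiv ℝ f x‖ + L * d ^ 2 := by
        rw [mul_comm d]
        gcongr

/-- the level inequality -/
theorem level [IsProbabilityMeasure μ] (h : HasLogConcaveDensity μ) {K : ℝ} (hK : 0 < K)
    (hint : Integrable (fun x => ‖x‖) μ) (hcc : Conc μ K)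
    {f : (EuclideanSpace ℝ (Fin n)) → ℝ} (hf : Continuous f) (hq : ∀ t : ℝ, m + 2 * √M < t → Convex ℝ {x | t < |f x|})
    {L : ℝ} (hL : ∀ x y, |f y| ≤ |f x| + ‖fderiv ℝ f x‖ * ‖y - x‖ + L * ‖y - x‖ ^ 2)
    (hL0 : 0 ≤ L) (hM : 0 < M) (hi : Integrable (fun x => uu m |f x| ^ 2) μ)
    (hu : ∫ x, uu m |f x| ^ 2 ∂μ ≤ M) {s : ℝ} (hs : 0 < s) (hs1 : s < 4 * √K) {t : ℝ}
    (_ht : 0 < t) :
    μ.real {x | t < |f x|} * (g1 m M t + s / (8 * √K) * g2 m M t)
      ≤ μ.real {x | t ≤ fs f L s x} * g1 m M t := by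
  set A := {x : EuclideanSpace ℝ (Fin n) | t < |f x|} with hA
  have hAm : MeasurableSet A := (isOpen_lt continuous_const hf.abs).measurableSet
  rcases (g1_nonneg (m := m) (M := M) t).eq_or_lt with h0 | hg
  · rw [g2_eq, ← h0]; simp
  rcases (measureReal_nonneg (μ := μ) (s := A)).eq_or_lt with h0 | hpos
  · rw [← h0, zero_mul]; positivity
  have hw : 0 < uu m t := by
    rcases (uu_nonneg (m := m) t).eq_or_lt with h1 | h1
    · rw [g1, ← h1] at hg; simp at hg
    · exact h1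
  have hqp : 0 < qq m M t := by
    rcases (qq_nonneg (m := m) (M := M) t).eq_or_lt with h1 | h1
    · rw [g1, ← h1] at hg; simp at hg
    · exact h1
  have hlp : 0 < ll m M t := by rw [← qq_sq]; positivity
  have hw4 : 1 < uu m t ^ 2 / (4 * M) := by
    by_contra hcon
    push Not at hcon
    unfold ll at hlp
    rw [max_eq_right hcon, Real.log_one] at hlp
    exact lt_irrefl _ hlp
  have hll : ll m M t = Real.log (uu m t ^ 2 / (4 * M)) := by
    unfold ll; rw [max_eq_left hw4.le]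
  have htm : m + 2 * √M < t := by
    have e1 : uu m t = t - m := by
      have h2 := hw
      unfold uu at h2 ⊢
      rcases le_total (t - m) 0 with h1 | h1
      · rw [max_eq_right h1] at h2; exact absurd h2 (lt_irrefl _)
      · exact max_eq_left h1
    have h3 := hw4
    rw [lt_div_iff₀ (by positivity), one_mul] at h3
    have h4 : (2 * √M) ^ 2 < uu m t ^ 2 := by
      rw [mul_pow, Real.sq_sqrt hM.le]; linarith
    have h5 := lt_of_pow_lt_pow_left₀ 2 hw.le h4
    linarith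
  -- Markov
  have hmar : uu m t ^ 2 * μ.real A ≤ M := by
    refine le_trans ?_ hu
    refine le_trans ?_ (mul_meas_ge_le_integral_of_nonneg (μ := μ)
      (f := fun x => uu m |f x| ^ 2) (Eventually.of_forall fun x => sq_nonneg _) hi (uu m t ^ 2))
    refine mul_le_mul_of_nonneg_left ?_ (sq_nonneg _)
    refine measureReal_mono (fun x hx => ?_) (measure_ne_top _ _)
    have h1 : t ≤ |f x| := le_of_lt hx
    have h2 := uu_mono (m := m) h1
    show uu m t ^ 2 ≤ uu m |f x| ^ 2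
    exact pow_le_pow_left₀ hw.le h2 2
  have hA4 : μ.real A ≤ 1 / 4 := by
    rw [lt_div_iff₀ (by positivity)] at hw4
    nlinarith
  have hkl : ll m M t ≤ Real.log (1 / μ.real A) := by
    rw [hll]
    apply Real.log_le_log (by positivity)
    rw [div_le_div_iff₀ (by positivity) hpos]
    nlinarith
  have hk1 : 1 ≤ Real.log (1 / μ.real A) := by
    have h4 : Real.log 4 ≤ Real.log (1 / μ.real A) := by
      apply Real.log_le_log (by norm_num)
      rw [le_div_iff₀ hpos]; linarith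
    have : Real.exp 1 ≤ 4 := by have := Real.exp_one_lt_d9; linarith
    have : 1 ≤ Real.log 4 := by rw [Real.le_log_iff_exp_le (by norm_num)]; exact this
    linarith
  have hiso := enl_iso h hK hint hcc (hq t htm) hAm hpos hA4 hs (by
    refine hs1.trans_le ?_
    have : √K ≤ √(K * Real.log (1 / μ.real A)) := Real.sqrt_le_sqrt (by nlinarith)
    linarith)
  have hne : A.Nonempty := by
    rw [nonempty_iff_ne_empty]; intro h0; rw [h0] at hpos; simp at hpos
  have hsub : μ.real {x | infDist x A ≤ s} ≤ μ.real {x | t ≤ fs f L s x} :=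
    measureReal_mono (fun x hx => le_fs hL hL0 hs.le hne hx) (measure_ne_top _ _)
  have hsK : 0 < √K := Real.sqrt_pos.2 hK
  have hqk : qq m M t ≤ √(Real.log (1 / μ.real A)) := Real.sqrt_le_sqrt hkl
  have hexp : 1 + s / (8 * √K) * qq m M t ≤ Real.exp (s * √(Real.log (1 / μ.real A)) / (8 * √K)) := by
    calc 1 + s / (8 * √K) * qq m M t = s * qq m M t / (8 * √K) + 1 := by ring
      _ ≤ Real.exp (s * qq m M t / (8 * √K)) := Real.add_one_le_exp _
      _ ≤ _ := by
          apply Real.exp_le_exp.2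
          gcongr
  calc μ.real A * (g1 m M t + s / (8 * √K) * g2 m M t)
      = μ.real A * (1 + s / (8 * √K) * qq m M t) * g1 m M t := by rw [g2_eq]; ring
    _ ≤ μ.real A * Real.exp (s * √(Real.log (1 / μ.real A)) / (8 * √K)) * g1 m M t := by gcongr
    _ ≤ μ.real {x | t ≤ fs f L s x} * g1 m M t := by
        gcongr
        exact hiso.trans hsub

theorem continuous_GG : Continuous (GG m M) :=
  intervalIntegral.continuous_primitive (fun a b => continuous_g1.intervalIntegrable a b) 0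

theorem continuous_JJ : Continuous (JJ m M) :=
  intervalIntegral.continuous_primitive (fun a b => continuous_g2.intervalIntegrable a b) 0

theorem continuous_fs {f : (EuclideanSpace ℝ (Fin n)) → ℝ} (hf : ContDiff ℝ ∞ f) (L s : ℝ) : Continuous (fs f L s) := by
  have h1 : Continuous (fderiv ℝ f) := hf.continuous_fderiv (by simp)
  have h2 := hf.continuous
  unfold fs
  fun_prop

/-- the integrated inequality -/
theorem integrated [IsProbabilityMeasure μ] (h : HasLogConcaveDensity μ) {K : ℝ} (hK : 0 < K)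
    (hint : Integrable (fun x => ‖x‖) μ) (hcc : Conc μ K)
    {f : (EuclideanSpace ℝ (Fin n)) → ℝ} (hf : ContDiff ℝ ∞ f) (hq : ∀ t : ℝ, m + 2 * √M < t → Convex ℝ {x | t < |f x|})
    {L : ℝ} (hL : ∀ x y, |f y| ≤ |f x| + ‖fderiv ℝ f x‖ * ‖y - x‖ + L * ‖y - x‖ ^ 2)
    (hL0 : 0 ≤ L) (hM : 0 < M) {B B' : ℝ} (hB : ∀ x, |f x| ≤ B) (hB' : ∀ x, ‖fderiv ℝ f x‖ ≤ B')
    (hu : ∫ x, uu m |f x| ^ 2 ∂μ ≤ M) {s : ℝ} (hs : 0 < s) (hs1 : s < 4 * √K) :
    (∫ x, GG m M |f x| ∂μ) + s / (8 * √K) * ∫ x, JJ m M |f x| ∂μ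
      ≤ ∫ x, GG m M (fs f L s x) ∂μ := by
  have hsK : 0 < √K := Real.sqrt_pos.2 hK
  have hc0 : 0 ≤ s / (8 * √K) := by positivity
  have hBf : ∀ x, |(|f x|)| ≤ B := fun x => by rw [abs_abs]; exact hB x
  have hfsnn : ∀ x, 0 ≤ fs f L s x := fun x => by unfold fs; positivity
  have hfsB : ∀ x, |fs f L s x| ≤ B + s * B' + L * s ^ 2 := fun x => by
    rw [abs_of_nonneg (hfsnn x)]
    unfold fs
    have := hB x
    have := hB' x
    gcongr
  have i1 : Integrable (fun x => GG m M |f x|) μ := int_comp continuous_GG hf.continuous.abs hBf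
  have i2 : Integrable (fun x => JJ m M |f x|) μ := int_comp continuous_JJ hf.continuous.abs hBf
  have i3 : Integrable (fun x => GG m M (fs f L s x)) μ :=
    int_comp continuous_GG (continuous_fs hf L s) hfsB
  have i4 : Integrable (fun x => uu m |f x| ^ 2) μ :=
    int_comp (Φ := fun y => uu m y ^ 2) (continuous_uu.pow 2) hf.continuous.abs hBf
  have hii : ∀ x y : ℝ, IntervalIntegrable (g1 m M) volume x y := fun x y =>
    continuous_g1.intervalIntegrable x y
  have hjj : ∀ x y : ℝ, IntervalIntegrable (g2 m M) volume x y := fun x y =>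
    continuous_g2.intervalIntegrable x y
  have e0 : ∀ y : ℝ, (∫ t in (0 : ℝ)..y, (g1 m M t + s / (8 * √K) * g2 m M t))
      = GG m M y + s / (8 * √K) * JJ m M y := by
    intro y
    rw [intervalIntegral.integral_add (hii 0 y) ((hjj 0 y).const_mul _),
      intervalIntegral.integral_const_mul]
    rfl
  have hG0 : ∀ y : ℝ, 0 ≤ y → 0 ≤ GG m M y := fun y hy =>
    intervalIntegral.integral_nonneg hy fun x _ => g1_nonneg x
  have hJ0 : ∀ y : ℝ, 0 ≤ y → 0 ≤ JJ m M y := fun y hy =>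
    intervalIntegral.integral_nonneg hy fun x _ => g2_nonneg x
  have key : ∫⁻ x, ENNReal.ofReal (∫ t in (0 : ℝ)..|f x|, (g1 m M t + s / (8 * √K) * g2 m M t)) ∂μ
      ≤ ∫⁻ x, ENNReal.ofReal (∫ t in (0 : ℝ)..fs f L s x, g1 m M t) ∂μ := by
    rw [lintegral_comp_eq_lintegral_meas_lt_mul μ (f := fun x => |f x|)
        (Eventually.of_forall fun x => abs_nonneg _) hf.continuous.abs.measurable.aemeasurable
        (g := fun t => g1 m M t + s / (8 * √K) * g2 m M t)
        (fun t _ => (hii 0 t).add ((hjj 0 t).const_mul _))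
        (Eventually.of_forall fun t => add_nonneg (g1_nonneg t) (mul_nonneg hc0 (g2_nonneg t))),
      lintegral_comp_eq_lintegral_meas_le_mul μ (f := fun x => fs f L s x)
        (Eventually.of_forall hfsnn) (continuous_fs hf L s).measurable.aemeasurable
        (g := g1 m M) (fun t _ => hii 0 t) (Eventually.of_forall fun t => g1_nonneg t)]
    refine setLIntegral_mono' measurableSet_Ioi fun t ht => ?_
    have hlev := level h hK hint hcc hf.continuous hq hL hL0 hM i4 hu hs hs1 (mem_Ioi.1 ht)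
    have c1 : ∀ S : Set (EuclideanSpace ℝ (Fin n)), μ S = ENNReal.ofReal (μ.real S) := fun S =>
      (ENNReal.ofReal_toReal (measure_ne_top _ _)).symm
    rw [c1, c1, ← ENNReal.ofReal_mul measureReal_nonneg, ← ENNReal.ofReal_mul measureReal_nonneg]
    exact ENNReal.ofReal_le_ofReal hlev
  have i12 : Integrable (fun x => GG m M |f x| + s / (8 * √K) * JJ m M |f x|) μ :=
    i1.add (i2.const_mul _)
  have h1 : ENNReal.ofReal (∫ x, (GG m M |f x| + s / (8 * √K) * JJ m M |f x|) ∂μ)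
      ≤ ENNReal.ofReal (∫ x, GG m M (fs f L s x) ∂μ) := by
    rw [ofReal_integral_eq_lintegral_ofReal i12
        (Eventually.of_forall fun x => add_nonneg (hG0 _ (abs_nonneg _))
          (mul_nonneg hc0 (hJ0 _ (abs_nonneg _)))),
      ofReal_integral_eq_lintegral_ofReal i3 (Eventually.of_forall fun x => hG0 _ (hfsnn x))]
    simp only [e0] at key
    exact key
  have h2 := (ENNReal.ofReal_le_ofReal_iff (integral_nonneg fun x => hG0 _ (hfsnn x))).1 h1
  rw [integral_add i1 (i2.const_mul _), integral_const_mul] at h2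
  exact h2

/-- the bound of the increment -/
theorem increment [IsProbabilityMeasure μ] (h : HasLogConcaveDensity μ) {K : ℝ} (hK : 0 < K)
    (hint : Integrable (fun x => ‖x‖) μ) (hcc : Conc μ K)
    {f : (EuclideanSpace ℝ (Fin n)) → ℝ} (hf : ContDiff ℝ ∞ f) (hq : ∀ t : ℝ, m + 2 * √M < t → Convex ℝ {x | t < |f x|})
    {L : ℝ} (hL : ∀ x y, |f y| ≤ |f x| + ‖fderiv ℝ f x‖ * ‖y - x‖ + L * ‖y - x‖ ^ 2)
    (hL0 : 0 ≤ L) (hM : 0 < M) {B B' : ℝ} (hB : ∀ x, |f x| ≤ B) (hB' : ∀ x, ‖fderiv ℝ f x‖ ≤ B')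
    (hu : ∫ x, uu m |f x| ^ 2 ∂μ ≤ M) {s : ℝ} (hs : 0 < s) (hs1 : s < 4 * √K) :
    (∫ x, JJ m M |f x| ∂μ) ≤
      8 * √K * ∫ x, (‖fderiv ℝ f x‖ + L * s) * g1 m M (fs f L s x) ∂μ := by
  have hsK : 0 < √K := Real.sqrt_pos.2 hK
  have hI := integrated h hK hint hcc hf hq hL hL0 hM hB hB' hu hs hs1
  have hBf : ∀ x, |(|f x|)| ≤ B := fun x => by rw [abs_abs]; exact hB x
  have hfsnn : ∀ x, 0 ≤ fs f L s x := fun x => by unfold fs; positivity
  have hfsB : ∀ x, |fs f L s x| ≤ B + s * B' + L * s ^ 2 := fun x => by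
    rw [abs_of_nonneg (hfsnn x)]
    unfold fs
    have := hB x
    have := hB' x
    gcongr
  have hB'0 : 0 ≤ B' := (norm_nonneg _).trans (hB' 0)
  have i1 : Integrable (fun x => GG m M |f x|) μ := int_comp continuous_GG hf.continuous.abs hBf
  have i3 : Integrable (fun x => GG m M (fs f L s x)) μ :=
    int_comp continuous_GG (continuous_fs hf L s) hfsB
  have hcfd : Continuous fun x => ‖fderiv ℝ f x‖ := (hf.continuous_fderiv (by simp)).norm
  have i5 : Integrable (fun x => (‖fderiv ℝ f x‖ + L * s) * g1 m M (fs f L s x)) μ := by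
    have j := int_comp (μ := μ) (continuous_g1 (m := m) (M := M)) (continuous_fs hf L s) hfsB
    refine Integrable.bdd_mul (c := B' + L * s) j ?_ ?_
    · exact (hcfd.add continuous_const).aestronglyMeasurable
    · filter_upwards with x
      rw [Real.norm_of_nonneg (by positivity)]
      linarith [hB' x]
  have h1 : (∫ x, GG m M (fs f L s x) ∂μ) - ∫ x, GG m M |f x| ∂μ
      ≤ s * ∫ x, (‖fderiv ℝ f x‖ + L * s) * g1 m M (fs f L s x) ∂μ := by
    rw [← integral_sub i3 i1, ← integral_const_mul]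
    refine integral_mono (i3.sub i1) (i5.const_mul _) fun x => ?_
    have hle : |f x| ≤ fs f L s x := by
      unfold fs
      have : 0 ≤ s * ‖fderiv ℝ f x‖ := by positivity
      have : 0 ≤ L * s ^ 2 := by positivity
      linarith [this]
    refine (GG_sub_le hM hle).trans (le_of_eq ?_)
    unfold fs
    ring
  have h2 : s / (8 * √K) * ∫ x, JJ m M |f x| ∂μ ≤
      s * ∫ x, (‖fderiv ℝ f x‖ + L * s) * g1 m M (fs f L s x) ∂μ := by linarith
  have h3 : s / (8 * √K) * (8 * √K / s) = 1 := by field_simp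
  have h4 := mul_le_mul_of_nonneg_left h2 (show 0 ≤ 8 * √K / s by positivity)
  calc (∫ x, JJ m M |f x| ∂μ) = 8 * √K / s * (s / (8 * √K) * ∫ x, JJ m M |f x| ∂μ) := by
        rw [← mul_assoc, mul_comm (8 * √K / s), h3, one_mul]
    _ ≤ 8 * √K / s * (s * ∫ x, (‖fderiv ℝ f x‖ + L * s) * g1 m M (fs f L s x) ∂μ) := h4
    _ = _ := by rw [← mul_assoc]; congr 1; field_simp

/-- the limit `s → 0` -/
theorem limit [IsProbabilityMeasure μ] (h : HasLogConcaveDensity μ) {K : ℝ} (hK : 0 < K)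
    (hint : Integrable (fun x => ‖x‖) μ) (hcc : Conc μ K)
    {f : (EuclideanSpace ℝ (Fin n)) → ℝ} (hf : ContDiff ℝ ∞ f) (hq : ∀ t : ℝ, m + 2 * √M < t → Convex ℝ {x | t < |f x|})
    {L : ℝ} (hL : ∀ x y, |f y| ≤ |f x| + ‖fderiv ℝ f x‖ * ‖y - x‖ + L * ‖y - x‖ ^ 2)
    (hL0 : 0 ≤ L) (hM : 0 < M) {B B' : ℝ} (hB : ∀ x, |f x| ≤ B) (hB' : ∀ x, ‖fderiv ℝ f x‖ ≤ B')
    (hu : ∫ x, uu m |f x| ^ 2 ∂μ ≤ M) :
    (∫ x, JJ m M |f x| ∂μ) ≤ 8 * √K * ∫ x, ‖fderiv ℝ f x‖ * g1 m M |f x| ∂μ := by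
  have hsK : 0 < √K := Real.sqrt_pos.2 hK
  have hcfd : Continuous fun x => ‖fderiv ℝ f x‖ := (hf.continuous_fderiv (by simp)).norm
  have hB0 : 0 ≤ B := (abs_nonneg _).trans (hB 0)
  have hB'0 : 0 ≤ B' := (norm_nonneg _).trans (hB' 0)
  have hT : Tendsto (fun s : ℝ => ∫ x, (‖fderiv ℝ f x‖ + L * s) * g1 m M (fs f L s x) ∂μ)
      (𝓝[>] 0) (𝓝 (∫ x, ‖fderiv ℝ f x‖ * g1 m M |f x| ∂μ)) := by
    refine tendsto_integral_filter_of_dominated_convergence
      (fun _ => (B' + L) * g1 m M (B + B' + L)) ?_ ?_ (integrable_const _) ?_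
    · refine Eventually.of_forall fun s => ?_
      exact ((hcfd.add continuous_const).mul
        (continuous_g1.comp (continuous_fs hf L s))).aestronglyMeasurable
    · filter_upwards [Ioo_mem_nhdsGT (show (0 : ℝ) < 1 by norm_num)] with s hs
      refine Eventually.of_forall fun x => ?_
      have hs0 : 0 < s := hs.1
      have hs1 : s < 1 := hs.2
      have n1 := g1_nonneg (m := m) (M := M) (fs f L s x)
      rw [Real.norm_of_nonneg (mul_nonneg (by positivity) n1)]
      have b1 : fs f L s x ≤ B + B' + L := by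
        unfold fs
        have e1 : s * ‖fderiv ℝ f x‖ ≤ 1 * B' := mul_le_mul hs1.le (hB' x) (norm_nonneg _) (by norm_num)
        have e2 : L * s ^ 2 ≤ L * 1 := mul_le_mul_of_nonneg_left (by nlinarith) hL0
        linarith [hB x]
      have b2 := g1_mono (m := m) hM b1
      have b3 : ‖fderiv ℝ f x‖ + L * s ≤ B' + L := by nlinarith [hB' x]
      exact mul_le_mul b3 b2 n1 (by positivity)
    · refine Eventually.of_forall fun x => ?_
      have hc : Continuous fun s : ℝ => (‖fderiv ℝ f x‖ + L * s) * g1 m M (fs f L s x) := by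
        unfold fs
        exact (by fun_prop : Continuous fun s : ℝ => ‖fderiv ℝ f x‖ + L * s).mul
          (continuous_g1.comp (by fun_prop))
      have := hc.tendsto 0
      have e : (‖fderiv ℝ f x‖ + L * 0) * g1 m M (fs f L 0 x) = ‖fderiv ℝ f x‖ * g1 m M |f x| := by
        unfold fs; simp
      rw [e] at this
      exact this.mono_left nhdsWithin_le_nhds
  refine ge_of_tendsto (hT.const_mul (8 * √K)) ?_
  filter_upwards [Ioo_mem_nhdsGT (show (0 : ℝ) < 4 * √K by positivity)] with s hs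
  exact increment h hK hint hcc hf hq hL hL0 hM hB hB' hu hs.1 hs.2

/-- the bound of `Λ` -/
theorem lam_le [IsProbabilityMeasure μ] (h : HasLogConcaveDensity μ) {K : ℝ} (hK : 0 < K)
    (hint : Integrable (fun x => ‖x‖) μ) (hcc : Conc μ K)
    {f : (EuclideanSpace ℝ (Fin n)) → ℝ} (hf : ContDiff ℝ ∞ f) (hcs : HasCompactSupport f)
    (hq : ∀ t : ℝ, m + 2 * √M < t → Convex ℝ {x | t < |f x|}) (hm : 0 ≤ m)
    (hM : 0 < M) (hu : ∫ x, uu m |f x| ^ 2 ∂μ ≤ M) :
    ∫ x, uu m |f x| ^ 2 * ll m M |f x| ∂μ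
      ≤ 4 * (∫ x, uu m |f x| ^ 2 ∂μ) + 1024 * K * ∫ x, ‖fderiv ℝ f x‖ ^ 2 ∂μ := by
  have hsK : 0 < √K := Real.sqrt_pos.2 hK
  obtain ⟨L, hL0, hL⟩ := taylor hf hcs
  obtain ⟨B, hB⟩ := hf.continuous.bounded_above_of_compact_support hcs
  obtain ⟨B', hB'⟩ := (hf.continuous_fderiv (by simp)).bounded_above_of_compact_support
    (hcs.fderiv ℝ)
  have hB0 : ∀ x, |f x| ≤ B := fun x => by rw [← Real.norm_eq_abs]; exact hB x
  have hBf : ∀ x, |(|f x|)| ≤ B := fun x => by rw [abs_abs]; exact hB0 x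
  have hlim := limit h hK hint hcc hf hq hL hL0 hM hB0 hB' hu
  have hcfd : Continuous fun x => ‖fderiv ℝ f x‖ := (hf.continuous_fderiv (by simp)).norm
  have i2 : Integrable (fun x => JJ m M |f x|) μ := int_comp continuous_JJ hf.continuous.abs hBf
  have i4 : Integrable (fun x => uu m |f x| ^ 2) μ :=
    int_comp (Φ := fun y => uu m y ^ 2) (continuous_uu.pow 2) hf.continuous.abs hBf
  have i6 : Integrable (fun x => uu m |f x| ^ 2 * ll m M |f x|) μ :=
    int_comp (Φ := fun y => uu m y ^ 2 * ll m M y) ((continuous_uu.pow 2).mul continuous_ll)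
      hf.continuous.abs hBf
  have i7 : Integrable (fun x => ‖fderiv ℝ f x‖ ^ 2) μ := by
    refine int_comp (Φ := fun y => y ^ 2) (continuous_pow 2) hcfd (B := B') fun x => ?_
    rw [abs_of_nonneg (norm_nonneg _)]; exact hB' x
  have i8 : Integrable (fun x => ‖fderiv ℝ f x‖ * g1 m M |f x|) μ := by
    have j := int_comp (μ := μ) (continuous_g1 (m := m) (M := M)) hf.continuous.abs hBf
    refine Integrable.bdd_mul (c := B') j hcfd.aestronglyMeasurable ?_
    filter_upwards with x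
    rw [norm_norm]; exact hB' x
  set Lam := ∫ x, uu m |f x| ^ 2 * ll m M |f x| ∂μ with hLam
  set I := ∫ x, ‖fderiv ℝ f x‖ ^ 2 ∂μ with hI
  set M' := ∫ x, uu m |f x| ^ 2 ∂μ with hM'
  -- lower bound
  have h1 : Lam / 2 - Real.log 4 / 2 * M' ≤ ∫ x, JJ m M |f x| ∂μ := by
    have : Lam / 2 - Real.log 4 / 2 * M'
        = ∫ x, (uu m |f x| ^ 2 * ll m M |f x| * (1 / 2) - uu m |f x| ^ 2 * (Real.log 4 / 2)) ∂μ := by
      rw [integral_sub (i6.mul_const _) (i4.mul_const _), integral_mul_const, integral_mul_const]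
      ring
    rw [this]
    refine integral_mono ((i6.mul_const _).sub (i4.mul_const _)) i2 fun x => ?_
    have := JJ_ge hm hM (abs_nonneg (f x))
    have e : uu m |f x| ^ 2 * ll m M |f x| * (1 / 2) - uu m |f x| ^ 2 * (Real.log 4 / 2)
        = uu m |f x| ^ 2 / 2 * (ll m M |f x| - Real.log 4) := by ring
    show uu m |f x| ^ 2 * ll m M |f x| * (1 / 2) - uu m |f x| ^ 2 * (Real.log 4 / 2) ≤ _
    rw [e]; exact this
  -- upper bound
  have h2 : ∫ x, ‖fderiv ℝ f x‖ * g1 m M |f x| ∂μ ≤ 32 * √K * I + 1 / (32 * √K) * Lam := by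
    have : 32 * √K * I + 1 / (32 * √K) * Lam
        = ∫ x, (32 * √K * ‖fderiv ℝ f x‖ ^ 2
          + 1 / (32 * √K) * (uu m |f x| ^ 2 * ll m M |f x|)) ∂μ := by
      rw [integral_add (i7.const_mul _) (i6.const_mul _), integral_const_mul, integral_const_mul]
    rw [this]
    refine integral_mono i8 ((i7.const_mul _).add (i6.const_mul _)) fun x => ?_
    show ‖fderiv ℝ f x‖ * g1 m M |f x| ≤ 32 * √K * ‖fderiv ℝ f x‖ ^ 2
          + 1 / (32 * √K) * (uu m |f x| ^ 2 * ll m M |f x|)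
    rw [← qq_sq, g1]
    set a := ‖fderiv ℝ f x‖
    set b := uu m |f x|
    set c := qq m M |f x|
    have hp : 0 < 32 * √K := by positivity
    have : 0 ≤ (32 * √K * a - b * c) ^ 2 / (32 * √K) := by positivity
    have e : (32 * √K * a - b * c) ^ 2 / (32 * √K)
        = 32 * √K * a ^ 2 + 1 / (32 * √K) * (b ^ 2 * (c * c)) - a * (2 * b * c) := by
      field_simp; ring
    linarith
  have hl4 : Real.log 4 ≤ 2 := by
    have : Real.log 4 = 2 * Real.log 2 := by
      rw [show (4 : ℝ) = 2 ^ 2 by norm_num, Real.log_pow]; norm_num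
    have := Real.log_two_lt_d9
    linarith
  have hM'0 : 0 ≤ M' := integral_nonneg fun x => sq_nonneg _
  have hl40 : 0 ≤ Real.log 4 := Real.log_nonneg (by norm_num)
  have h3 : Real.log 4 / 2 * M' ≤ M' := by nlinarith
  have h4 : 8 * √K * (32 * √K * I + 1 / (32 * √K) * Lam) = 256 * K * I + Lam / 4 := by
    have : √K * √K = K := Real.mul_self_sqrt hK.le
    have e : 8 * √K * (32 * √K * I + 1 / (32 * √K) * Lam)
        = 256 * (√K * √K) * I + Lam / 4 * (√K / √K) := by
      field_simp; ring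
    rw [e, this, div_self hsK.ne', mul_one]
  have h5 : 8 * √K * ∫ x, ‖fderiv ℝ f x‖ * g1 m M |f x| ∂μ ≤ 256 * K * I + Lam / 4 := by
    rw [← h4]
    exact mul_le_mul_of_nonneg_left h2 (by positivity)
  linarith

end Vale.Agent.P245.H14
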