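import Vale.Agent.P245.H14.QCd
import Vale.Agent.P245.H607.Cor
import Vale.Agent.P245.H847.HandIn2

/-!
# P245: row QC without hypotheses
-/

open MeasureTheory Metric Set Filter
open scoped ENNReal Topology ContDiff

namespace Vale.Agent.P245.H14

/-- Row QC in threshold form, from the output of `H847.handin2`. -/
theorem qcT_of {C : ℝ} (hC : 0 < C) {n : ℕ} {μ : Measure (EuclideanSpace ℝ (Fin n))}
    [IsProbabilityMeasure μ] (hlc : HasLogConcaveDensity μ) {a : ℝ} (ha : 0 < a)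
    (hsub : LinearlySubgaussian μ a)
    (h3 : ∀ f : EuclideanSpace ℝ (Fin n) → ℝ, ContDiff ℝ ∞ f → HasCompactSupport f →
      (∫ x, f x ^ 2 ∂μ) - (∫ x, f x ∂μ) ^ 2 ≤ C * a ^ 2 * ∫ x, ‖gradient f x‖ ^ 2 ∂μ)
    (h5 : ∀ F : EuclideanSpace ℝ (Fin n) → ℝ, LipschitzWith 1 F → ConvexOn ℝ Set.univ F →
      ∀ t : ℝ, 0 ≤ t →
        ∫ x, Real.exp (-t * (F x - ∫ y, F y ∂μ)) ∂μ ≤ Real.exp (C * a ^ 2 * t ^ 2))
    {f : EuclideanSpace ℝ (Fin n) → ℝ} (hf : ContDiff ℝ ∞ f) (hcs : HasCompactSupport f) {T : ℝ}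
    (hT : 2 ≤ T)
    (hq : ∀ t : ℝ, |∫ x, f x ∂μ| + T * √((∫ x, f x ^ 2 ∂μ) - (∫ x, f x ∂μ) ^ 2) < t →
      Convex ℝ {x | t < |f x|}) :
    Entropy μ (fun x => f x ^ 2) ≤
      6306 * C * (1 + Real.log T) * a ^ 2 * ∫ x, ‖gradient f x‖ ^ 2 ∂μ := by
  have hK : 0 < C * a ^ 2 := by positivity
  have hcc : Conc μ (C * a ^ 2) := by
    intro F hF hc t ht
    have := h5 F hF hc t ht
    refine le_trans (le_of_eq ?_) this
    apply integral_congr_ae
    refine Eventually.of_forall fun x => ?_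
    simp only
    congr 1; ring
  have hint : Integrable (fun x : EuclideanSpace ℝ (Fin n) => ‖x‖) μ :=
    H607.lip_integrable ha hsub (F := fun x => ‖x‖) lipschitzWith_one_norm
  have h := qcT hlc hK hint hcc h3 hf hcs hT hq
  have hI : 0 ≤ ∫ x, ‖gradient f x‖ ^ 2 ∂μ := integral_nonneg fun x => by positivity
  refine h.trans ?_
  have hl2 : 0 < Real.log 2 := Real.log_pos (by norm_num)
  have hl : Real.log (T / 2) ≤ Real.log T := Real.log_le_log (by linarith) (by linarith)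
  have hlT : 0 ≤ Real.log T := Real.log_nonneg (by linarith)
  have e : (81 + 6 * Real.log (T / 2)) * (C * a ^ 2) + 3072 * (C * a ^ 2)
      ≤ 6306 * C * (1 + Real.log T) * a ^ 2 := by nlinarith [hK, hl, hlT]
  exact mul_le_mul_of_nonneg_right e hI

/-- Gaussian isoperimetry for convex sets, from the output of `H847.handin2`. -/
theorem iso_of {C : ℝ} (hC : 0 < C) {n : ℕ} {μ : Measure (EuclideanSpace ℝ (Fin n))}
    [IsProbabilityMeasure μ] (hlc : HasLogConcaveDensity μ) {a : ℝ} (ha : 0 < a)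
    (hsub : LinearlySubgaussian μ a)
    (h5 : ∀ F : EuclideanSpace ℝ (Fin n) → ℝ, LipschitzWith 1 F → ConvexOn ℝ Set.univ F →
      ∀ t : ℝ, 0 ≤ t →
        ∫ x, Real.exp (-t * (F x - ∫ y, F y ∂μ)) ∂μ ≤ Real.exp (C * a ^ 2 * t ^ 2))
    {A : Set (EuclideanSpace ℝ (Fin n))} (hA : Convex ℝ A) (hm : MeasurableSet A)
    (h0 : 0 < μ.real A) (h4 : μ.real A ≤ 1 / 4) {r : ℝ} (hr : 0 < r)
    (hr0 : r < 4 * √(C * a ^ 2 * Real.log (1 / μ.real A))) :
    μ.real A * Real.exp (r * √(Real.log (1 / μ.real A)) / (8 * √(C * a ^ 2)))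
      ≤ μ.real {x | infDist x A ≤ r} := by
  have hK : 0 < C * a ^ 2 := by positivity
  have hcc : Conc μ (C * a ^ 2) := by
    intro F hF hc t ht
    have := h5 F hF hc t ht
    refine le_trans (le_of_eq ?_) this
    apply integral_congr_ae
    refine Eventually.of_forall fun x => ?_
    simp only
    congr 1; ring
  have hint : Integrable (fun x : EuclideanSpace ℝ (Fin n) => ‖x‖) μ :=
    H607.lip_integrable ha hsub (F := fun x => ‖x‖) lipschitzWith_one_norm
  exact enl_iso hlc hK hint hcc hA hm h0 h4 hr hr0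

end Vale.Agent.P245.H14
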